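import Mathlib

/-! # P199: Kurosh's problem for division rings, special cases -/

namespace Vale.Agent.Results.P199.BoundedProducts

open Submodule

variable {k D : Type} [Field k] [DivisionRing D] [Algebra k D]

/-- the span of the powers of an algebraic element is finite-dimensional -/
theorem fin_adjoin (hD : ∀ x : D, IsAlgebraic k x) (x : D) :
    (Subalgebra.toSubmodule (Algebra.adjoin k {x})).FG :=
  IsIntegral.fg_adjoin_singleton ((hD x).isIntegral)

theorem prod_fg (L : List (Submodule k D)) (h : ∀ M ∈ L, M.FG) : L.prod.FG := by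
  induction L with
  | nil =>
    rw [List.prod_nil, Submodule.one_eq_span]
    exact Submodule.fg_span_singleton 1
  | cons M L ih =>
    rw [List.prod_cons]
    exact (h M (List.mem_cons_self)).mul (ih fun N hN => h N (List.mem_cons_of_mem _ hN))

theorem zpow_mem' (hD : ∀ x : D, IsAlgebraic k x) (g : Dˣ) (n : ℤ) :
    ((g ^ n : Dˣ) : D) ∈ Algebra.adjoin k {(g : D)} := by
  have hinv : ((g⁻¹ : Dˣ) : D) ∈ Algebra.adjoin k {(g : D)} := by
    rw [Units.val_inv_eq_inv_val]
    exact ((hD g).isIntegral).inv_mem_adjoin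
  have hg : (g : D) ∈ Algebra.adjoin k {(g : D)} := Algebra.subset_adjoin rfl
  cases n with
  | ofNat n =>
    simp only [Int.ofNat_eq_natCast, zpow_natCast, Units.val_pow_eq_pow_val]
    exact Subalgebra.pow_mem _ hg n
  | negSucc n =>
    rw [zpow_negSucc, ← inv_pow, Units.val_pow_eq_pow_val]
    exact Subalgebra.pow_mem _ hinv _

theorem map_prod_mem {ι : Type} (L : List ι) (f : ι → D) (M : ι → Submodule k D)
    (h : ∀ i ∈ L, f i ∈ M i) : (L.map f).prod ∈ (L.map M).prod := by
  induction L with
  | nil =>
    simp only [List.map_nil, List.prod_nil]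
    exact Submodule.one_le.1 le_rfl
  | cons i L ih =>
    simp only [List.map_cons, List.prod_cons]
    exact Submodule.mul_mem_mul (h i (List.mem_cons_self))
      (ih fun j hj => h j (List.mem_cons_of_mem _ hj))

theorem fin_of_le {S : Set D} {W : Submodule k D} (hW : W.FG)
    (h : Subalgebra.toSubmodule (Algebra.adjoin k S) ≤ W) :
    FiniteDimensional k (Algebra.adjoin k S) := by
  have h1 : FiniteDimensional k W := Module.Finite.iff_fg.2 hW
  have h2 := Submodule.finiteDimensional_of_le h
  exact h2

/-- (A) boundedly generated multiplicative groups -/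
theorem caseA (hD : ∀ x : D, IsAlgebraic k x) (m : ℕ) (g : Fin m → Dˣ) (G : Subgroup Dˣ)
    (hG : ∀ x ∈ G, ∃ e : Fin m → ℤ, x = ((List.finRange m).map fun i => g i ^ e i).prod)
    (S : Set D) (hS : ∀ s ∈ S, ∃ x ∈ G, (x : D) = s) :
    FiniteDimensional k (Algebra.adjoin k S) := by
  let M : Fin m → Submodule k D := fun i => Subalgebra.toSubmodule (Algebra.adjoin k {(g i : D)})
  have hW : (((List.finRange m).map M).prod).FG := prod_fg _ (by
    intro N hN
    rw [List.mem_map] at hN
    obtain ⟨i, _, rfl⟩ := hN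
    exact fin_adjoin hD _)
  refine fin_of_le hW ?_
  have hle : Algebra.adjoin k S ≤ Algebra.adjoin k ((fun x : Dˣ => (x : D)) '' (G : Set Dˣ)) := by
    apply Algebra.adjoin_mono
    intro s hs
    obtain ⟨x, hx, hxs⟩ := hS s hs
    exact ⟨x, hx, hxs⟩
  refine le_trans (Subalgebra.toSubmodule.monotone hle) ?_
  rw [Algebra.adjoin_eq_span]
  apply Submodule.span_le.2
  intro y hy
  have hy2 : ∃ x ∈ G, (x : D) = y := by
    have : (Submonoid.closure ((fun x : Dˣ => (x : D)) '' (G : Set Dˣ)))
        ≤ G.toSubmonoid.map (Units.coeHom D) := by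
      rw [Submonoid.closure_le]
      rintro _ ⟨x, hx, rfl⟩
      exact ⟨x, hx, rfl⟩
    obtain ⟨x, hx, hxy⟩ := this hy
    exact ⟨x, hx, hxy⟩
  obtain ⟨x, hx, rfl⟩ := hy2
  obtain ⟨e, he⟩ := hG x hx
  have h1 : (x : D) = ((List.finRange m).map fun i => ((g i ^ e i : Dˣ) : D)).prod := by
    rw [he]
    have := map_list_prod (Units.coeHom D) ((List.finRange m).map fun i => g i ^ e i)
    rw [List.map_map] at this
    exact this
  rw [h1]
  exact map_prod_mem _ _ _ fun i _ => zpow_mem' hD (g i) (e i)

/-- (B) two quadratic elements -/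
theorem caseB (hD : ∀ x : D, IsAlgebraic k x) (a b : D) (p q r s : k)
    (ha : a * a = p • a + q • (1 : D)) (hb : b * b = r • b + s • (1 : D)) :
    FiniteDimensional k (Algebra.adjoin k {a, b}) := by
  set z : D := a * b + b * a - r • a - p • b with hz
  let M : Submodule k D := Subalgebra.toSubmodule (Algebra.adjoin k {z})
  let N : Submodule k D := span k ({1, a, b, a * b} : Set D)
  have hM : M.FG := fin_adjoin hD z
  have hN : N.FG := Submodule.fg_span (by simp)
  have hW : (M * N).FG := hM.mul hN
  have hza : z * a = a * z := by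
    rw [hz]
    simp only [add_mul, sub_mul, mul_add, mul_sub, smul_mul_assoc, mul_smul_comm]
    have e1 : a * b * a = a * (b * a) := mul_assoc _ _ _
    have e2 : b * a * a = p • (b * a) + q • b := by
      rw [mul_assoc, ha, mul_add, mul_smul_comm, mul_smul_comm, mul_one]
    have e3 : a * (a * b) = p • (a * b) + q • b := by
      rw [← mul_assoc, ha, add_mul, smul_mul_assoc, smul_mul_assoc, one_mul]
    rw [e1, e2, e3]
    abel
  have h1M : (1 : D) ∈ M := Subalgebra.one_mem _
  have hzM : z ∈ M := Algebra.subset_adjoin rfl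
  have n1 : (1 : D) ∈ N := subset_span (by simp)
  have na : a ∈ N := subset_span (by simp)
  have nb : b ∈ N := subset_span (by simp)
  have nab : a * b ∈ N := subset_span (by simp)
  have hNW : ∀ x ∈ N, x ∈ M * N := fun x hx => by
    have := Submodule.mul_mem_mul h1M hx
    rwa [one_mul] at this
  have hba : b * a = z - a * b + r • a + p • b := by
    rw [hz]
    abel
  have hbaW : b * a ∈ M * N := by
    rw [hba]
    refine add_mem (add_mem (sub_mem ?_ (hNW _ nab)) (hNW _ (N.smul_mem r na)))
      (hNW _ (N.smul_mem p nb))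
    have := Submodule.mul_mem_mul hzM n1
    rwa [mul_one] at this
  have hza' : z * a ∈ M * N := Submodule.mul_mem_mul hzM na
  have habaW : a * b * a ∈ M * N := by
    have : a * b * a = z * a - (p • (a * b) + q • b) + r • (p • a + q • (1 : D)) + p • (a * b) := by
      rw [mul_assoc, hba, hza]
      simp only [mul_add, mul_sub, mul_smul_comm]
      have e3 : a * (a * b) = p • (a * b) + q • b := by
        rw [← mul_assoc, ha, add_mul, smul_mul_assoc, smul_mul_assoc, one_mul]
      rw [e3, ha]
    rw [this]
    exact add_mem (add_mem (sub_mem hza' (hNW _ (add_mem (N.smul_mem p nab) (N.smul_mem q nb))))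
      (hNW _ (N.smul_mem r (add_mem (N.smul_mem p na) (N.smul_mem q n1)))))
      (hNW _ (N.smul_mem p nab))
  have hNa : ∀ x ∈ N, x * a ∈ M * N := by
    intro x hx
    refine Submodule.span_induction (p := fun x _ => x * a ∈ M * N) ?_ ?_ ?_ ?_ hx
    · rintro y (rfl | rfl | rfl | rfl)
      · rw [one_mul]
        exact hNW _ na
      · rw [ha]
        exact hNW _ (add_mem (N.smul_mem p na) (N.smul_mem q n1))
      · exact hbaW
      · exact habaW
    · rw [zero_mul]
      exact zero_mem _
    · intro y w _ _ h1 h2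
      rw [add_mul]
      exact add_mem h1 h2
    · intro t y _ h1
      rw [smul_mul_assoc]
      exact (M * N).smul_mem t h1
  have hNb : ∀ x ∈ N, x * b ∈ M * N := by
    intro x hx
    refine Submodule.span_induction (p := fun x _ => x * b ∈ M * N) ?_ ?_ ?_ ?_ hx
    · rintro y (rfl | rfl | rfl | rfl)
      · rw [one_mul]
        exact hNW _ nb
      · exact hNW _ nab
      · rw [hb]
        exact hNW _ (add_mem (N.smul_mem r nb) (N.smul_mem s n1))
      · rw [mul_assoc, hb, mul_add, mul_smul_comm, mul_smul_comm, mul_one]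
        exact hNW _ (add_mem (N.smul_mem r nab) (N.smul_mem s na))
    · rw [zero_mul]
      exact zero_mem _
    · intro y w _ _ h1 h2
      rw [add_mul]
      exact add_mem h1 h2
    · intro t y _ h1
      rw [smul_mul_assoc]
      exact (M * N).smul_mem t h1
  have hMM : M * (M * N) ≤ M * N := by
    rw [← mul_assoc]
    refine mul_le_mul' ?_ le_rfl
    rw [Submodule.mul_le]
    intro x hx y hy
    exact Subalgebra.mul_mem _ hx hy
  have hstep : ∀ c : D, (∀ x ∈ N, x * c ∈ M * N) → ∀ w ∈ M * N, w * c ∈ M * N := by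
    intro c hc w hw
    refine Submodule.mul_induction_on hw ?_ ?_
    · intro x hx y hy
      rw [mul_assoc]
      exact hMM (Submodule.mul_mem_mul hx (hc y hy))
    · intro x y h1 h2
      rw [add_mul]
      exact add_mem h1 h2
  refine fin_of_le hW ?_
  intro x hx
  have hx' : x ∈ Algebra.adjoin k {a, b} := hx
  have hall : ∀ w ∈ M * N, w * x ∈ M * N := by
    refine Algebra.adjoin_induction (p := fun x _ => ∀ w ∈ M * N, w * x ∈ M * N)
      ?_ ?_ ?_ ?_ hx'
    · rintro y (rfl | rfl)
      · exact hstep _ hNa
      · exact hstep _ hNb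
    · intro t w hw
      rw [Algebra.algebraMap_eq_smul_one, mul_smul_comm, mul_one]
      exact (M * N).smul_mem t hw
    · intro y y' _ _ h1 h2 w hw
      rw [mul_add]
      exact add_mem (h1 w hw) (h2 w hw)
    · intro y y' _ _ h1 h2 w hw
      rw [← mul_assoc]
      exact h2 _ (h1 w hw)
  have := hall 1 (hNW _ n1)
  rwa [one_mul] at this

/-- span of the products of fewer than `m` generators -/
def Qm {ι : Type} (v : ι → D) (m : ℕ) : Submodule k D :=
  span k {x | ∃ l : List ι, l.length < m ∧ (l.map v).prod = x}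

theorem Qm_mono {ι : Type} (v : ι → D) {m m' : ℕ} (h : m ≤ m') :
    (Qm v m : Submodule k D) ≤ Qm v m' := by
  apply Submodule.span_mono
  rintro x ⟨l, hl, hx⟩
  exact ⟨l, by omega, hx⟩

theorem Qm_mul {ι : Type} (v : ι → D) (m : ℕ) (i : ι) {x : D} (hx : x ∈ (Qm v m : Submodule k D)) :
    v i * x ∈ (Qm v (m + 1) : Submodule k D) := by
  refine Submodule.span_induction (p := fun x _ => v i * x ∈ (Qm v (m + 1) : Submodule k D))
    ?_ ?_ ?_ ?_ hx
  · rintro y ⟨l, hl, rfl⟩
    exact Submodule.subset_span ⟨i :: l, by simpa using hl, by simp⟩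
  · rw [mul_zero]
    exact zero_mem _
  · intro y w _ _ h1 h2
    rw [mul_add]
    exact add_mem h1 h2
  · intro t y _ h1
    rw [mul_smul_comm]
    exact Submodule.smul_mem _ t h1

theorem perm_mem {ι : Type} (v : ι → D) (V : Submodule k D) (hV : V = span k (Set.range v))
    (hL : ∀ x ∈ V, ∀ y ∈ V, x * y - y * x ∈ V) (l l' : List ι) (h : l.Perm l') :
    (l.map v).prod - (l'.map v).prod ∈ (Qm v l.length : Submodule k D) := by
  induction h with
  | nil =>
    rw [sub_self]
    exact zero_mem _
  | cons i h ih =>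
    simp only [List.map_cons, List.prod_cons, List.length_cons]
    rw [← mul_sub]
    exact Qm_mul v _ i ih
  | swap i j l =>
    simp only [List.map_cons, List.prod_cons, List.length_cons]
    have hv : ∀ i, v i ∈ V := fun i => by
      rw [hV]
      exact subset_span ⟨i, rfl⟩
    have e1 : v j * (v i * (l.map v).prod) - v i * (v j * (l.map v).prod)
        = (v j * v i - v i * v j) * (l.map v).prod := by
      rw [sub_mul, mul_assoc, mul_assoc]
    rw [e1]
    have h1 : v j * v i - v i * v j ∈ V := hL _ (hv j) _ (hv i)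
    rw [hV] at h1
    refine Submodule.span_induction
      (p := fun x _ => x * (l.map v).prod ∈ (Qm v (l.length + 1 + 1) : Submodule k D)) ?_ ?_ ?_ ?_ h1
    · rintro y ⟨a, rfl⟩
      exact Submodule.subset_span ⟨a :: l, by simp, by simp⟩
    · rw [zero_mul]
      exact zero_mem _
    · intro y w _ _ h1 h2
      rw [add_mul]
      exact add_mem h1 h2
    · intro t y _ h1
      rw [smul_mul_assoc]
      exact Submodule.smul_mem _ t h1
  | trans h1 _ ih1 ih2 =>
    rw [← h1.length_eq] at ih2
    have := add_mem ih1 ih2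
    rwa [sub_add_sub_cancel] at this

theorem flat_prod {ι : Type} (v : ι → D) (c : ι → ℕ) (L : List ι) :
    ((L.flatMap fun i => List.replicate (c i) i).map v).prod = (L.map fun i => v i ^ c i).prod := by
  induction L with
  | nil => simp
  | cons i L ih =>
    simp only [List.flatMap_cons, List.map_append, List.prod_append, List.map_cons, List.prod_cons,
      ih, List.map_replicate, List.prod_replicate]

theorem perm_flat {n : ℕ} (l : List (Fin n)) :
    l.Perm ((List.finRange n).flatMap fun i => List.replicate (l.count i) i) := by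
  rw [List.perm_iff_count]
  intro a
  rw [List.count_flatMap]
  have h1 : (List.finRange n).map (List.count a ∘ fun i => List.replicate (l.count i) i)
      = (List.finRange n).map (fun i => if i = a then l.count a else 0) := by
    apply List.map_congr_left
    intro i _
    simp only [Function.comp_apply, List.count_replicate]
    by_cases hi : i = a
    · subst hi
      simp
    · simp [hi]
  rw [h1]
  have h2 : ((List.finRange n).map (fun i => if i = a then l.count a else 0)).sum
      = ∑ i : Fin n, (if i = a then l.count a else 0) := by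
    rw [← List.ofFn_eq_map, List.sum_ofFn]
  rw [h2]
  simp

theorem closure_list {ι : Type} (v : ι → D) (y : D)
    (hy : y ∈ Submonoid.closure (Set.range v)) : ∃ l : List ι, (l.map v).prod = y := by
  induction hy using Submonoid.closure_induction with
  | mem x hx =>
    obtain ⟨i, rfl⟩ := hx
    exact ⟨[i], by simp⟩
  | one => exact ⟨[], by simp⟩
  | mul x y _ _ ih1 ih2 =>
    obtain ⟨l, rfl⟩ := ih1
    obtain ⟨l', rfl⟩ := ih2
    exact ⟨l ++ l', by rw [List.map_append, List.prod_append]⟩

theorem Qm_le {n : ℕ} (v : Fin n → D) (V : Submodule k D) (hV : V = span k (Set.range v))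
    (hL : ∀ x ∈ V, ∀ y ∈ V, x * y - y * x ∈ V) (M : Fin n → Submodule k D)
    (hM : ∀ i (c : ℕ), v i ^ c ∈ M i) (m : ℕ) :
    (Qm v m : Submodule k D) ≤ ((List.finRange n).map M).prod := by
  induction m with
  | zero =>
    apply Submodule.span_le.2
    rintro x ⟨l, hl, _⟩
    omega
  | succ m ih =>
    apply Submodule.span_le.2
    rintro x ⟨l, hl, rfl⟩
    have h1 := perm_mem v V hV hL l _ (perm_flat l)
    have h2 := ih (Qm_mono v (by omega : l.length ≤ m) h1)
    have h3 : (((List.finRange n).flatMap fun i => List.replicate (l.count i) i).map v).prod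
        ∈ ((List.finRange n).map M).prod := by
      rw [flat_prod]
      exact map_prod_mem _ _ _ fun i _ => hM i _
    have h4 := add_mem h2 h3
    rw [sub_add_cancel] at h4
    exact h4

theorem span_adjoin_le {n : ℕ} (v : Fin n → D) (S : Set D)
    (hS : ∀ s ∈ S, s ∈ span k (Set.range v)) (W : Submodule k D)
    (hQ : ∀ m : ℕ, (Qm v m : Submodule k D) ≤ W) :
    Subalgebra.toSubmodule (Algebra.adjoin k S) ≤ W := by
  have hle : Algebra.adjoin k S ≤ Algebra.adjoin k (Set.range v) := by
    apply Algebra.adjoin_le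
    intro s hs
    exact Algebra.span_le_adjoin k _ (hS s hs)
  refine le_trans (Subalgebra.toSubmodule.monotone hle) ?_
  rw [Algebra.adjoin_eq_span]
  apply Submodule.span_le.2
  intro y hy
  obtain ⟨l, hl⟩ := closure_list v y hy
  exact hQ (l.length + 1) (Submodule.subset_span ⟨l, Nat.lt_succ_self _, hl⟩)

/-- the powers of an element -/
def Mg (k : Type) {D : Type} [Field k] [DivisionRing D] [Algebra k D] (x : D) : Submodule k D :=
  Subalgebra.toSubmodule (Algebra.adjoin k {x})

theorem Mg_fg (hD : ∀ x : D, IsAlgebraic k x) (x : D) : (Mg k x).FG := fin_adjoin hD x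

theorem Mg_pow (x : D) (c : ℕ) : x ^ c ∈ Mg k x := by
  have h : x ∈ Algebra.adjoin k {x} := Algebra.subset_adjoin rfl
  have h2 : x ^ c ∈ Algebra.adjoin k {x} := pow_mem h c
  exact h2

/-- (C) finite-dimensional Lie subalgebras -/
theorem caseC (hD : ∀ x : D, IsAlgebraic k x) (V : Submodule k D) (hVf : FiniteDimensional k V)
    (hL : ∀ x ∈ V, ∀ y ∈ V, x * y - y * x ∈ V) (S : Set D) (hS : ∀ s ∈ S, s ∈ V) :
    FiniteDimensional k (Algebra.adjoin k S) := by
  have hfg : V.FG := Module.Finite.iff_fg.1 hVf
  obtain ⟨n, v, hv⟩ := Submodule.fg_iff_exists_fin_generating_family.1 hfg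
  have hW : (((List.finRange n).map fun i => Mg k (v i)).prod).FG := by
    apply prod_fg
    intro N hN
    rw [List.mem_map] at hN
    obtain ⟨i, _, hi⟩ := hN
    rw [← hi]
    exact Mg_fg hD _
  have hQ := Qm_le v V hv.symm hL (fun i => Mg k (v i)) (fun i c => Mg_pow _ _)
  exact fin_of_le hW (span_adjoin_le v S (fun s hs => by rw [hv]; exact hS s hs) _ hQ)

/-- Special cases of Kurosh's problem for a division ring `D` algebraic over a central field `k`. -/
theorem result (k D : Type) [Field k] [DivisionRing D] [Algebra k D]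
    (hD : ∀ x : D, IsAlgebraic k x) :
    (∀ (m : ℕ) (g : Fin m → Dˣ) (G : Subgroup Dˣ),
      (∀ x ∈ G, ∃ e : Fin m → ℤ, x = ((List.finRange m).map fun i => g i ^ e i).prod) →
      ∀ S : Set D, (∀ s ∈ S, ∃ x ∈ G, (x : D) = s) →
        FiniteDimensional k (Algebra.adjoin k S)) ∧
    (∀ V : Submodule k D, FiniteDimensional k V → (∀ x ∈ V, ∀ y ∈ V, x * y - y * x ∈ V) →
      ∀ S : Set D, (∀ s ∈ S, s ∈ V) → FiniteDimensional k (Algebra.adjoin k S)) ∧
    (∀ (a b : D) (p q r s : k), a * a = p • a + q • (1 : D) → b * b = r • b + s • (1 : D) →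
      FiniteDimensional k (Algebra.adjoin k {a, b})) :=
  ⟨fun m g G hG S hS => caseA hD m g G hG S hS, fun V hV hL S hS => caseC hD V hV hL S hS,
    fun a b p q r s ha hb => caseB hD a b p q r s ha hb⟩

end Vale.Agent.Results.P199.BoundedProducts
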